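import Crest.Agent.Lib.Saxl.BaseCert

/-!
# Base shape `baseL 3 0` (row 195, S0298): certificates generated by a search program.
-/

set_option autoImplicit false
set_option maxRecDepth 1000000

namespace Crest.Agent.Saxl.Kron.B30

open Crest.Agent.Saxl Crest.Agent.Saxl.Family

/-- The triples. -/
def T : List Triple := [
  ([1],[1],[1]),
  ([1,1],[1,1],[1,1]),
  ([1,1,1],[1,1,1],[1,1,1]),
  ([2,1],[2,1],[2,1]),
  ([2,1],[1,1,1],[2,1]),
  ([2,2,2],[3,2,1],[3,2,1]),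
  ([1,1,1],[2,1],[2,1]),
  ([2,2,1],[2,2,1],[3,2]),
  ([2,2,2],[3,2,1],[3,2,1])]

/-- Certificates, chunk 0. -/
def C0 : List Cert := [
  ⟨[0],[0],[0],1,1⟩,
  ⟨[0,1],[1,0],[0,1],1,1⟩,
  ⟨[0,1,2],[2,0,1],[0,1,2],1,1⟩,
  ⟨[0,1,2],[0,1,2],[2,1,0],2,129⟩,
  ⟨[0,1,2],[2,4,0],[2,1,0],2,9⟩,
  ⟨[1,0,3,4,6,7],[6,1,2,0,4,3],[0,4,2,3,1,6],3,16781314⟩,
  ⟨[2,0,4],[0,1,2],[2,1,0],2,65⟩,
  ⟨[6,1,0,3,4],[1,3,6,4,0],[4,3,2,1,0],3,4162⟩,
  ⟨[1,0,3,4,6,7],[6,1,2,0,4,3],[0,4,2,3,1,6],3,16781314⟩]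

theorem ok0 : (C0.all Cert.ok && C0.map Cert.tripleS == (T.drop 0).take 40) = true := by
  decide +kernel

theorem gT1 : ∀ t ∈ T.drop 40, t.Good := forall_drop_of_nil (by decide +kernel)

theorem gT0 : ∀ t ∈ T.drop 0, t.Good := forall_drop_of_chunk 40 (good_of_chunk ok0) gT1

theorem gT : ∀ t ∈ T, t.Good := gT0

/-- The partitions, as column heights. -/
def PS : List (List ℕ) := [[1,1,1,1,1,1],[2,1,1,1,1],[2,2,1,1],[2,2,2],[3,1,1,1],[3,2,1],[3,3],[4,1,1],[4,2],[5,1],[6]]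

theorem hPS : partsF 6 6 6 = PS := by decide +kernel

/-- The statement for one partition. -/
def G (c : List ℕ) : Prop := Real3 (c : Multiset ℕ) (([3, 2, 1] : List ℕ) : Multiset ℕ) (([3, 2, 1] : List ℕ) : Multiset ℕ)

/-- Table, chunk 0. -/
def D0 : List ℕ := [2684551168,327728,557126,80,327780,950272,132,327781,557127,327729,2684551169]

theorem tb0 : tableOK T [3, 2, 1] ((PS.drop 0).take 100) (D0.map lineDer) = true := by
  decide +kernel

theorem gP1 : ∀ c ∈ PS.drop 100, G c := forall_drop_of_nil (by decide +kernel)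

theorem gP0 : ∀ c ∈ PS.drop 0, G c := forall_drop_of_chunk 100 (tableOK_good gT tb0) gP1

theorem universal : Universal (cellsL (baseL 3 0)) (cellsL (baseL 3 0)).card := by
  rw [card_cellsL]
  exact universal_cellsL_of_all (good_baseL (by decide) (by decide)) (H := [3, 2, 1]) (by decide)
    (by simp) hPS gP0

end Crest.Agent.Saxl.Kron.B30
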