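import Crest.Agent.Lib.Saxl.Bases.B00
import Crest.Agent.Lib.Saxl.Bases.B01
import Crest.Agent.Lib.Saxl.Bases.B02
import Crest.Agent.Lib.Saxl.Bases.B03
import Crest.Agent.Lib.Saxl.Bases.B10
import Crest.Agent.Lib.Saxl.Bases.B11
import Crest.Agent.Lib.Saxl.Bases.B12
import Crest.Agent.Lib.Saxl.Bases.B13
import Crest.Agent.Lib.Saxl.Bases.B20
import Crest.Agent.Lib.Saxl.Bases.B21
import Crest.Agent.Lib.Saxl.Bases.B22
import Crest.Agent.Lib.Saxl.Bases.B23
import Crest.Agent.Lib.Saxl.Bases.B30
import Crest.Agent.Lib.Saxl.Bases.B31
import Crest.Agent.Lib.Saxl.Bases.B32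
import Crest.Agent.Lib.Saxl.Bases.B33

/-!
# The sixteen base shapes of the family are universal (row 195, S0298): the input `hbase` of
`Family.s0298_of_data`.
-/

set_option autoImplicit false

namespace Crest.Agent.Saxl.Kron

open Crest.Agent.Saxl Crest.Agent.Saxl.Family

theorem hbase (i j : ℕ) (hi : i < 4) (hj : j < 4) :
    Universal (cellsL (baseL i j)) (cellsL (baseL i j)).card := by
  interval_cases i <;> interval_cases j
  · exact B00.universal
  · exact B01.universal
  · exact B02.universal
  · exact B03.universal
  · exact B10.universal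
  · exact B11.universal
  · exact B12.universal
  · exact B13.universal
  · exact B20.universal
  · exact B21.universal
  · exact B22.universal
  · exact B23.universal
  · exact B30.universal
  · exact B31.universal
  · exact B32.universal
  · exact B33.universal

end Crest.Agent.Saxl.Kron
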